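import Vale.Agent.Lib.P102.KMain

/-!
# P102 (Rokhlin's multiple mixing problem): a single-set criterion for mixing of every order

For an invertible mixing probability-preserving transformation `T` and every `k`, mixing of order
`k` is equivalent to its single-set version: `μ(⋂ i, T^{-t i} A) → μ(A)^k` for every measurable `A`,
as all the gaps of the times `t 0 < t 1 < ...` tend to infinity.
-/

namespace Vale.Agent.Results.P102.SingleSetAllOrders

open MeasureTheory Vale.Agent.Lib.P102

theorem result {Ω : Type*} [MeasurableSpace Ω] (μ : Measure Ω) [IsProbabilityMeasure μ]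
    (T : Equiv.Perm Ω) (hT : MeasurePreserving T μ μ) (hTs : Measurable T.symm)
    (hmix : Mixing μ T) (k : ℕ) :
    MixingOfOrder μ T k ↔
      ∀ A : Set Ω, MeasurableSet A → ∀ ε : ℝ, 0 < ε → ∃ N : ℤ, ∀ t : Fin k → ℤ,
        (∀ i j : Fin k, i < j → N ≤ t j - t i) →
          |μ.real (⋂ i, (T ^ t i) ⁻¹' A) - μ.real A ^ k| < ε :=
  ⟨diag_of_order_k, order_k_of_diag hT hTs hmix⟩

end Vale.Agent.Results.P102.SingleSetAllOrders
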