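import Vale.Agent.Results.P102.SingleSet3
import Vale.Agent.Results.P102.SingleSetAllOrders

/-!
# P102 (Rokhlin's multiple mixing problem): the two single-set criteria in one theorem

For an invertible mixing probability-preserving transformation `T`:
(1) for every `k`, mixing of order `k` is equivalent to its single-set version;
(2) mixing of order three is equivalent to the one-sided single-set condition
`liminf μ(A ∩ T^{-n} A ∩ T^{-m} A) ≥ μ(A)^3`.
-/

namespace Vale.Agent.Results.P102.A_Combined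

open MeasureTheory Vale.Agent.Lib.P102

theorem result {Ω : Type*} [MeasurableSpace Ω] (μ : Measure Ω) [IsProbabilityMeasure μ]
    (T : Equiv.Perm Ω) (hT : MeasurePreserving T μ μ) (hTs : Measurable T.symm)
    (hmix : Mixing μ T) :
    (∀ k : ℕ, MixingOfOrder μ T k ↔
      ∀ A : Set Ω, MeasurableSet A → ∀ ε : ℝ, 0 < ε → ∃ N : ℤ, ∀ t : Fin k → ℤ,
        (∀ i j : Fin k, i < j → N ≤ t j - t i) →
          |μ.real (⋂ i, (T ^ t i) ⁻¹' A) - μ.real A ^ k| < ε) ∧
    (MixingOfOrder μ T 3 ↔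
      ∀ A : Set Ω, MeasurableSet A → ∀ ε : ℝ, 0 < ε → ∃ N : ℤ, ∀ n m : ℤ, N ≤ n → N ≤ m - n →
        μ.real A ^ 3 - ε < μ.real (A ∩ (T ^ n) ⁻¹' A ∩ (T ^ m) ⁻¹' A)) :=
  ⟨fun k => Vale.Agent.Results.P102.SingleSetAllOrders.result μ T hT hTs hmix k,
    Vale.Agent.Results.P102.SingleSet3.result μ T hT hTs hmix⟩

end Vale.Agent.Results.P102.A_Combined
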