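import Vale.Agent.Lib.P102.Main

/-!
# P102 (Rokhlin's multiple mixing problem): a single-set, one-sided criterion for order three

For an invertible mixing probability-preserving transformation `T`, mixing of order three is
equivalent to the one-sided single-set condition
`liminf μ(A ∩ T^{-n} A ∩ T^{-m} A) ≥ μ(A)^3` (as `n → ∞` and `m - n → ∞`) for every measurable `A`.
-/

namespace Vale.Agent.Results.P102.SingleSet3

open MeasureTheory Vale.Agent.Lib.P102

theorem result {Ω : Type*} [MeasurableSpace Ω] (μ : Measure Ω) [IsProbabilityMeasure μ]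
    (T : Equiv.Perm Ω) (hT : MeasurePreserving T μ μ) (hTs : Measurable T.symm)
    (hmix : Mixing μ T) :
    MixingOfOrder μ T 3 ↔
      ∀ A : Set Ω, MeasurableSet A → ∀ ε : ℝ, 0 < ε → ∃ N : ℤ, ∀ n m : ℤ, N ≤ n → N ≤ m - n →
        μ.real A ^ 3 - ε < μ.real (A ∩ (T ^ n) ⁻¹' A ∩ (T ^ m) ⁻¹' A) :=
  ⟨lower_of_order_three, order_three_of_lower hT hTs hmix⟩

end Vale.Agent.Results.P102.SingleSet3
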